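import Mathlib

/-!
P032: compactness for colourings with prescribed colours at some points.
-/

open Set Filter Topology

namespace Vale.Agent.P032.R2.H125

/-- Colourings of finite sets with prescribed labels glue. -/
theorem exists_colouring {X : Type*} {k : ℕ} (A : X → X → Prop) (L : X → Fin k → Prop)
    (h : ∀ F : Finset X, ∃ c : X → Fin k, (∀ x ∈ F, ∀ y ∈ F, A x y → c x ≠ c y) ∧
      ∀ x ∈ F, ∀ i, L x i → c x = i) :
    ∃ c : X → Fin k, (∀ x y, A x y → c x ≠ c y) ∧ ∀ x i, L x i → c x = i := by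
  classical
  let K : Finset X → Set (X → Fin k) := fun F =>
    {c | (∀ x ∈ F, ∀ y ∈ F, A x y → c x ≠ c y) ∧ ∀ x ∈ F, ∀ i, L x i → c x = i}
  have hcl : ∀ F, IsClosed (K F) := by
    intro F
    have h1 : K F = (⋂ x ∈ F, ⋂ y ∈ F, ⋂ (_ : A x y), {c : X → Fin k | c x ≠ c y}) ∩
        ⋂ x ∈ F, ⋂ i, ⋂ (_ : L x i), {c : X → Fin k | c x = i} := by
      ext c
      simp only [K, mem_ofPred_eq, mem_inter_iff, mem_iInter]
    rw [h1]
    refine IsClosed.inter ?_ ?_
    · refine isClosed_biInter fun x _ => isClosed_biInter fun y _ => isClosed_iInter fun _ => ?_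
      have h2 : {c : X → Fin k | c x ≠ c y} =
          (fun c : X → Fin k => (c x, c y)) ⁻¹' {p | p.1 ≠ p.2} := rfl
      rw [h2]
      exact (isClosed_discrete _).preimage ((continuous_apply x).prodMk (continuous_apply y))
    · refine isClosed_biInter fun x _ => isClosed_iInter fun i => isClosed_iInter fun _ => ?_
      have h2 : {c : X → Fin k | c x = i} = (fun c : X → Fin k => c x) ⁻¹' {i} := rfl
      rw [h2]
      exact (isClosed_discrete _).preimage (continuous_apply x)
  obtain ⟨c, hc⟩ := IsCompact.nonempty_iInter_of_directed_nonempty_isCompact_isClosed K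
    (fun F G => ⟨F ∪ G, fun c hc => ⟨fun x hx y hy => hc.1 x (Finset.mem_union_left _ hx) y
        (Finset.mem_union_left _ hy), fun x hx => hc.2 x (Finset.mem_union_left _ hx)⟩,
      fun c hc => ⟨fun x hx y hy => hc.1 x (Finset.mem_union_right _ hx) y
        (Finset.mem_union_right _ hy), fun x hx => hc.2 x (Finset.mem_union_right _ hx)⟩⟩)
    (fun F => by
      obtain ⟨c, h1, h2⟩ := h F
      exact ⟨c, h1, h2⟩)
    (fun F => (hcl F).isCompact) hcl
  rw [mem_iInter] at hc
  exact ⟨c, fun x y => (hc {x, y}).1 x (by simp) y (by simp),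
    fun x => (hc {x}).2 x (by simp)⟩

end Vale.Agent.P032.R2.H125
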