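import Vale.Agent.P032.R2.H125.Cpt

/-!
P032: sets without unit distances which cover nearly all of large discs give a proper colouring.
-/

set_option autoImplicit false

open MeasureTheory Set Filter Topology
open scoped ENNReal

namespace Vale.Agent.P032.R2.H125

theorem vol_ball_E (x : EuclideanSpace ℝ (Fin 2)) {ρ : ℝ} (hρ : 0 ≤ ρ) :
    volume (Metric.ball x ρ) = ENNReal.ofReal (Real.pi * ρ ^ 2) := by
  rw [EuclideanSpace.volume_ball_fin_two, ENNReal.ofReal_mul Real.pi_pos.le,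
    ENNReal.ofReal_pow hρ, mul_comm, ← NNReal.coe_real_pi, ENNReal.ofReal_coe_nnreal]

theorem exists_of_dense {k : ℕ}
    (h : ∀ ε : ℝ, 0 < ε → ∃ A : Fin k → Set (EuclideanSpace ℝ (Fin 2)),
      (∀ i, ∀ x ∈ A i, ∀ y ∈ A i, dist x y ≠ 1) ∧ ∃ R : ℝ, 1 / ε ≤ R ∧
        volume (Metric.ball 0 R \ ⋃ i, A i) ≤
          ENNReal.ofReal ε * volume (Metric.ball (0 : EuclideanSpace ℝ (Fin 2)) R)) :
    ∃ c : EuclideanSpace ℝ (Fin 2) → Fin k, ∀ x y, dist x y = 1 → c x ≠ c y := by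
  classical
  -- the main step: translations of a finite set into the union
  have main : ∀ F : Finset (EuclideanSpace ℝ (Fin 2)),
      ∃ A : Fin k → Set (EuclideanSpace ℝ (Fin 2)), (∀ i, ∀ x ∈ A i, ∀ y ∈ A i, dist x y ≠ 1) ∧
        ∃ t, ∀ x ∈ F, x + t ∈ ⋃ i, A i := by
    intro F
    obtain ⟨ρ, hρ, hρF⟩ : ∃ ρ : ℝ, 0 < ρ ∧ ∀ x ∈ F, ‖x‖ ≤ ρ := by
      refine ⟨∑ x ∈ F, ‖x‖ + 1, ?_, fun x hx => ?_⟩
      · have : 0 ≤ ∑ x ∈ F, ‖x‖ := Finset.sum_nonneg fun x _ => norm_nonneg x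
        linarith
      · have := Finset.single_le_sum (f := fun x : EuclideanSpace ℝ (Fin 2) => ‖x‖)
          (fun y _ => norm_nonneg y) hx
        linarith
    have hcard : (0 : ℝ) ≤ F.card := Nat.cast_nonneg _
    set ε : ℝ := 1 / (8 * ((F.card : ℝ) + 1) + 2 * ρ) with hε
    have hε0 : 0 < ε := by positivity
    obtain ⟨A, hA, R, hR, hvol⟩ := h ε hε0
    have hR1 : 8 * ((F.card : ℝ) + 1) + 2 * ρ ≤ R := by
      have h1 : 1 / ε = 8 * ((F.card : ℝ) + 1) + 2 * ρ := by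
        rw [hε, one_div_one_div]
      rwa [h1] at hR
    have hR0 : 0 < R := by nlinarith
    refine ⟨A, hA, ?_⟩
    by_contra hcon
    push Not at hcon
    have h2 : Metric.ball (0 : EuclideanSpace ℝ (Fin 2)) (R / 2) ⊆
        ⋃ x ∈ F, (fun t => x + t) ⁻¹' (Metric.ball 0 R \ ⋃ i, A i) := by
      intro t ht
      obtain ⟨x, hx, hxt⟩ := hcon t
      refine mem_iUnion₂.2 ⟨x, hx, ?_, hxt⟩
      rw [Metric.mem_ball, dist_zero_right] at ht ⊢
      have h3 := norm_add_le x t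
      have h4 := hρF x hx
      have h5 : 2 * ρ ≤ R := by nlinarith
      show ‖x + t‖ < R
      linarith
    have h3 : volume (Metric.ball (0 : EuclideanSpace ℝ (Fin 2)) (R / 2)) ≤
        ENNReal.ofReal ((F.card : ℝ) * (ε * (Real.pi * R ^ 2))) := by
      calc volume (Metric.ball (0 : EuclideanSpace ℝ (Fin 2)) (R / 2))
          ≤ volume (⋃ x ∈ F, (fun t => x + t) ⁻¹' (Metric.ball 0 R \ ⋃ i, A i)) :=
            measure_mono h2
        _ ≤ ∑ x ∈ F, volume ((fun t => x + t) ⁻¹' (Metric.ball 0 R \ ⋃ i, A i)) :=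
            measure_biUnion_finset_le _ _
        _ ≤ ∑ _x ∈ F, ENNReal.ofReal (ε * (Real.pi * R ^ 2)) := by
            refine Finset.sum_le_sum fun x _ => ?_
            rw [measure_preimage_add, ENNReal.ofReal_mul hε0.le, ← vol_ball_E 0 hR0.le]
            exact hvol
        _ = ENNReal.ofReal ((F.card : ℝ) * (ε * (Real.pi * R ^ 2))) := by
            rw [Finset.sum_const, nsmul_eq_mul, ENNReal.ofReal_mul hcard, ENNReal.ofReal_natCast]
    rw [vol_ball_E _ (by positivity), ENNReal.ofReal_le_ofReal_iff (by positivity)] at h3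
    have h4 : (F.card : ℝ) * ε ≤ 1 / 8 := by
      rw [hε, mul_one_div, div_le_iff₀ (by positivity)]
      linarith
    have h5 : 0 < Real.pi * R ^ 2 := by positivity
    nlinarith
  have hk : 0 < k := by
    obtain ⟨A, -, t, ht⟩ := main {0}
    obtain ⟨i, -⟩ := mem_iUnion.1 (ht 0 (by simp))
    exact (Nat.zero_le _).trans_lt i.2
  have : Nonempty (Fin k) := ⟨⟨0, hk⟩⟩
  obtain ⟨c, hc, -⟩ := exists_colouring (X := EuclideanSpace ℝ (Fin 2)) (k := k)
    (fun x y => dist x y = 1) (fun _ _ => False) (fun F => by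
      obtain ⟨A, hA, t, ht⟩ := main F
      have h1 : ∀ x ∈ F, ∃ i, x + t ∈ A i := fun x hx => mem_iUnion.1 (ht x hx)
      choose! f hf using h1
      refine ⟨f, fun x hx y hy hxy hxy' => ?_, fun x _ i hi => hi.elim⟩
      refine hA (f x) _ (hf x hx) _ (hxy' ▸ hf y hy) ?_
      rw [dist_add_right]
      exact hxy)
  exact ⟨c, hc⟩

end Vale.Agent.P032.R2.H125
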