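import Vale.Agent.P032.M.Fin
import Vale.Agent.P032.R2.H125.Cpt

/-!
P032: an almost everywhere proper Borel colouring of the plane can be changed on a null set into a
colouring which is proper everywhere.
-/

set_option autoImplicit false

open MeasureTheory Set Filter Topology
open scoped ENNReal

namespace Vale.Agent.P032.R2.H125

open Vale.Agent.P032.M

theorem vol_ball (x : ℂ) {ρ : ℝ} (hρ : 0 ≤ ρ) :
    volume (Metric.closedBall x ρ) = ENNReal.ofReal (Real.pi * ρ ^ 2) := by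
  rw [Complex.volume_closedBall, ENNReal.ofReal_mul Real.pi_pos.le, ENNReal.ofReal_pow hρ,
    mul_comm, ← NNReal.coe_real_pi, ENNReal.ofReal_coe_nnreal]

theorem e_mul (s θ : ℝ) : e s * e θ = e (θ + s) := by
  unfold e
  rw [← Complex.exp_add]
  push_cast
  ring_nf

theorem cont_e : Continuous e := by
  unfold e
  fun_prop

theorem good_dir {k : ℕ} {c : ℂ → Fin k} (hc : Measurable c) (hp : Proper c) :
    ∀ᵐ t : ℝ, ∀ᵐ x : ℂ, c (x + e t) ≠ c x := by
  have hm : MeasurableSet {p : ℂ × ℝ | c (p.1 + e p.2) ≠ c p.1} := by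
    have h1 : Measurable fun p : ℂ × ℝ => c (p.1 + e p.2) :=
      hc.comp (measurable_fst.add (cont_e.measurable.comp measurable_snd))
    have h2 : Measurable fun p : ℂ × ℝ => c p.1 := hc.comp measurable_fst
    exact (measurableSet_eq_fun h1 h2).compl
  exact (Measure.ae_ae_comm (p := fun (x : ℂ) (t : ℝ) => c (x + e t) ≠ c x) hm).1 hp

/-- the finite step -/
theorem finite_step {k : ℕ} {c : ℂ → Fin k} (hc : Measurable c) (hp : Proper c) (F : Finset ℂ) :
    ∃ c' : ℂ → Fin k, (∀ x ∈ F, ∀ y ∈ F, dist x y = 1 → c' x ≠ c' y) ∧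
      ∀ x ∈ F, ∀ i, IsDens (c ⁻¹' {i}) x → c' x = i := by
  classical
  set P : Finset (ℂ × Fin k) := (F ×ˢ Finset.univ).filter fun p => IsDens (c ⁻¹' {p.2}) p.1
    with hP
  set ε : ℝ := 1 / (8 * ((P.card : ℝ) + 1)) with hε
  have hcard : (0 : ℝ) ≤ P.card := Nat.cast_nonneg _
  have hε0 : 0 < ε := by positivity
  have hε1 : ε ≤ 1 := by
    rw [hε, div_le_one (by positivity)]
    linarith
  have h1 : ∀ p ∈ P, ∃ r₀ : ℝ, 0 < r₀ ∧ ∀ r, 0 < r → r < r₀ →
      volume (Metric.closedBall p.1 r \ (c ⁻¹' {p.2})) ≤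
        ENNReal.ofReal ε * volume (Metric.closedBall p.1 r) := fun p hp' =>
    dens_compl (hc (measurableSet_singleton _)) (Finset.mem_filter.1 hp').2 hε0 hε1
  choose! r₀ hr₀ hb using h1
  obtain ⟨r, hr, hrP⟩ : ∃ r : ℝ, 0 < r ∧ ∀ p ∈ P, 2 * r < r₀ p := by
    by_cases hne : P.Nonempty
    · refine ⟨P.inf' hne r₀ / 4, ?_, fun p hp' => ?_⟩
      · have : 0 < P.inf' hne r₀ := by
          rw [Finset.lt_inf'_iff]
          exact hr₀
        linarith
      · have h2 := Finset.inf'_le r₀ hp'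
        have h3 := hr₀ p hp'
        linarith
    · exact ⟨1, one_pos, fun p hp' => absurd ⟨p, hp'⟩ hne⟩
  obtain ⟨R, hR, hRF⟩ : ∃ R : ℝ, 0 < R ∧ ∀ x ∈ F, ‖x‖ ≤ R := by
    refine ⟨∑ x ∈ F, ‖x‖ + 1, ?_, fun x hx => ?_⟩
    · have : 0 ≤ ∑ x ∈ F, ‖x‖ := Finset.sum_nonneg fun x _ => norm_nonneg x
      linarith
    · have := Finset.single_le_sum (f := fun x : ℂ => ‖x‖) (fun y _ => norm_nonneg y) hx
      linarith
  have hdir : ∀ x y : ℂ, dist x y = 1 → ∃ θ : ℝ, y = x + e θ := by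
    intro x y h
    obtain ⟨θ, hθ⟩ := exists_e_of_norm (z := y - x) (by rw [← dist_eq_norm, dist_comm, h])
    exact ⟨θ, by rw [← hθ]; ring⟩
  choose! θ hθ using hdir
  -- the angle
  have hs : ∀ᵐ s : ℝ, ∀ p ∈ F ×ˢ F, ∀ᵐ x : ℂ, c (x + e (θ p.1 p.2 + s)) ≠ c x := by
    rw [Filter.eventually_all_finset]
    intro p _
    exact (measurePreserving_add_left (volume : Measure ℝ) (θ p.1 p.2)).quasiMeasurePreserving.ae
      (good_dir hc hp)
  obtain ⟨s, hsV, hs⟩ := exists_of_ae (μ := (volume : Measure ℝ)) (V := {s : ℝ | ‖e s - 1‖ < r / R})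
    (isOpen_lt (cont_e.sub continuous_const).norm continuous_const)
    ⟨0, by
      show ‖e 0 - 1‖ < r / R
      have : e 0 = 1 := by unfold e; simp
      rw [this, sub_self, norm_zero]
      positivity⟩ hs
  have hmove : ∀ x ∈ F, ‖e s * x - x‖ ≤ r := by
    intro x hx
    have h2 : e s * x - x = (e s - 1) * x := by ring
    rw [h2, norm_mul]
    have h3 : ‖e s - 1‖ < r / R := hsV
    calc ‖e s - 1‖ * ‖x‖ ≤ r / R * R := mul_le_mul h3.le (hRF x hx) (norm_nonneg _) (by positivity)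
      _ = r := by field_simp
  -- the translation
  have ht : ∀ᵐ t : ℂ, ∀ p ∈ F ×ˢ F, c (e s * p.1 + t + e (θ p.1 p.2 + s)) ≠ c (e s * p.1 + t) := by
    rw [Filter.eventually_all_finset]
    intro p hp'
    exact (measurePreserving_add_left (volume : Measure ℂ) (e s * p.1)).quasiMeasurePreserving.ae
      (hs p hp')
  set bad : ℂ × Fin k → Set ℂ := fun p =>
    {t | t ∈ Metric.closedBall (0 : ℂ) r ∧ c (e s * p.1 + t) ≠ p.2} with hbad
  have hbadm : ∀ p ∈ P, volume (bad p) ≤ ENNReal.ofReal (ε * (Real.pi * (2 * r) ^ 2)) := by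
    intro p hp'
    have hpF : p.1 ∈ F := (Finset.mem_product.1 (Finset.mem_filter.1 hp').1).1
    have h2 : bad p ⊆ (fun t => e s * p.1 + t) ⁻¹'
        (Metric.closedBall p.1 (2 * r) \ (c ⁻¹' {p.2})) := by
      rintro t ⟨h3, h4⟩
      refine ⟨?_, fun h5 => h4 h5⟩
      rw [Metric.mem_closedBall, dist_zero_right] at h3
      rw [Metric.mem_closedBall, dist_eq_norm]
      have h5 : e s * p.1 + t - p.1 = (e s * p.1 - p.1) + t := by ring
      rw [h5]
      calc ‖e s * p.1 - p.1 + t‖ ≤ ‖e s * p.1 - p.1‖ + ‖t‖ := norm_add_le _ _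
        _ ≤ r + r := add_le_add (hmove _ hpF) h3
        _ = 2 * r := by ring
    calc volume (bad p) ≤ volume ((fun t => e s * p.1 + t) ⁻¹'
          (Metric.closedBall p.1 (2 * r) \ (c ⁻¹' {p.2}))) := measure_mono h2
      _ = volume (Metric.closedBall p.1 (2 * r) \ (c ⁻¹' {p.2})) := by
        rw [measure_preimage_add]
      _ ≤ ENNReal.ofReal ε * volume (Metric.closedBall p.1 (2 * r)) :=
        hb p hp' (2 * r) (by positivity) (hrP p hp')
      _ = ENNReal.ofReal (ε * (Real.pi * (2 * r) ^ 2)) := by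
        rw [vol_ball _ (by positivity), ENNReal.ofReal_mul hε0.le]
  obtain ⟨t, htG, htb⟩ : ∃ t : ℂ,
      (∀ p ∈ F ×ˢ F, c (e s * p.1 + t + e (θ p.1 p.2 + s)) ≠ c (e s * p.1 + t)) ∧
      ∀ p ∈ P, c (e s * p.1 + t) = p.2 := by
    by_contra hcon
    push Not at hcon
    have h2 : Metric.closedBall (0 : ℂ) r ⊆
        {t | ¬ ∀ p ∈ F ×ˢ F, c (e s * p.1 + t + e (θ p.1 p.2 + s)) ≠ c (e s * p.1 + t)} ∪
          ⋃ p ∈ P, bad p := by
      intro t ht'
      by_cases h3 : ∀ p ∈ F ×ˢ F, c (e s * p.1 + t + e (θ p.1 p.2 + s)) ≠ c (e s * p.1 + t)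
      · right
        obtain ⟨p, hp', h4⟩ := hcon t h3
        exact mem_iUnion₂.2 ⟨p, hp', ht', h4⟩
      · left
        exact h3
    have h3 : volume (Metric.closedBall (0 : ℂ) r) ≤
        ENNReal.ofReal ((P.card : ℝ) * (ε * (Real.pi * (2 * r) ^ 2))) := by
      calc volume (Metric.closedBall (0 : ℂ) r) ≤ _ := measure_mono h2
        _ ≤ volume {t | ¬ ∀ p ∈ F ×ˢ F,
              c (e s * p.1 + t + e (θ p.1 p.2 + s)) ≠ c (e s * p.1 + t)} +
            volume (⋃ p ∈ P, bad p) := measure_union_le _ _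
        _ = volume (⋃ p ∈ P, bad p) := by rw [ae_iff.1 ht, zero_add]
        _ ≤ ∑ p ∈ P, volume (bad p) := measure_biUnion_finset_le _ _
        _ ≤ ∑ _p ∈ P, ENNReal.ofReal (ε * (Real.pi * (2 * r) ^ 2)) :=
          Finset.sum_le_sum hbadm
        _ = ENNReal.ofReal ((P.card : ℝ) * (ε * (Real.pi * (2 * r) ^ 2))) := by
          rw [Finset.sum_const, nsmul_eq_mul, ENNReal.ofReal_mul hcard,
            ENNReal.ofReal_natCast]
    rw [vol_ball _ hr.le, ENNReal.ofReal_le_ofReal_iff (by positivity)] at h3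
    have h4 : (P.card : ℝ) * ε ≤ 1 / 8 := by
      rw [hε, mul_one_div, div_le_iff₀ (by positivity)]
      linarith
    have h5 : 0 < Real.pi * r ^ 2 := by positivity
    have h6 : (P.card : ℝ) * (ε * (Real.pi * (2 * r) ^ 2)) =
        4 * ((P.card : ℝ) * ε) * (Real.pi * r ^ 2) := by ring
    rw [h6] at h3
    nlinarith
  refine ⟨fun x => c (e s * x + t), fun x hx y hy hxy => ?_, fun x hx i hi => ?_⟩
  · have h2 := htG (x, y) (Finset.mem_product.2 ⟨hx, hy⟩)
    have h3 : e s * y + t = e s * x + t + e (θ x y + s) := by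
      conv_lhs => rw [hθ x y hxy]
      rw [mul_add, e_mul]
      ring
    show c (e s * x + t) ≠ c (e s * y + t)
    rw [h3]
    exact fun h => h2 h.symm
  · exact htb (x, i) (Finset.mem_filter.2 ⟨Finset.mem_product.2 ⟨hx, Finset.mem_univ i⟩, hi⟩)

/-- **from almost everywhere to everywhere** -/
theorem exists_full {k : ℕ} {c : ℂ → Fin k} (hc : Measurable c) (hp : Proper c) :
    ∃ c' : ℂ → Fin k, (∀ x y, dist x y = 1 → c' x ≠ c' y) ∧
      ∀ x i, IsDens (c ⁻¹' {i}) x → c' x = i :=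
  exists_colouring (fun x y => dist x y = 1) (fun x i => IsDens (c ⁻¹' {i}) x)
    (finite_step hc hp)

/-- open sets with dense union and an a.e. proper Borel colouring with these colours on them -/
theorem exists_pair {k : ℕ} {c₀ : ℂ → Fin k} (hc₀ : Measurable c₀) (hp₀ : Proper c₀) :
    ∃ (D : Fin k → Set ℂ) (c : ℂ → Fin k), (∀ i, IsOpen (D i)) ∧ Dense (⋃ i, D i) ∧
      Measurable c ∧ Proper c ∧ Ext D c := by
  obtain ⟨D, hD, ⟨c₁, hc₁, hp₁, hE₁⟩, hmax⟩ := exists_maximal limit ⟨c₀, hc₀, hp₀⟩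
  refine ⟨D, c₁, hD, ?_, hc₁, hp₁, hE₁⟩
  let Ω : Set ℂ := (closure (⋃ i, D i))ᶜ
  have hΩ : IsOpen Ω := isClosed_closure.isOpen_compl
  have hΩD : ∀ i, Disjoint Ω (D i) := by
    intro i
    rw [Set.disjoint_left]
    intro x hx hxD
    exact hx (subset_closure (mem_iUnion.2 ⟨i, hxD⟩))
  have hind : ∀ m : ℕ, m ≤ k → ∃ c : ℂ → Fin k, Measurable c ∧ Proper c ∧ Ext D c ∧
      ∀ᵐ x : ℂ, x ∈ Ω → (c x : ℕ) < k - m := by
    intro m
    induction m with
    | zero =>
      intro _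
      exact ⟨c₁, hc₁, hp₁, hE₁, Eventually.of_forall fun x _ => by simp⟩
    | succ m ih =>
      intro hm
      obtain ⟨c, hc, hp, hE, hlt⟩ := ih (by omega)
      obtain ⟨c', hc', hp', hE', hlt'⟩ := step limit purity hD hmax hΩ hΩD ⟨k - (m + 1), by omega⟩
        ⟨c, hc, hp, hE, by
          filter_upwards [hlt] with x hx hxΩ
          have := hx hxΩ
          rw [Fin.le_def]
          show (c x : ℕ) ≤ k - (m + 1)
          omega⟩
      refine ⟨c', hc', hp', hE', ?_⟩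
      filter_upwards [hlt'] with x hx hxΩ
      exact hx hxΩ
  obtain ⟨c, -, -, -, hlt⟩ := hind k le_rfl
  have hΩ0 : Ω = ∅ := by
    by_contra hne
    obtain ⟨x, hx, hx'⟩ := exists_of_ae hΩ (nonempty_iff_ne_empty.2 hne) hlt
    have := hx' hx
    omega
  rw [dense_iff_closure_eq]
  rw [← compl_empty_iff]
  exact hΩ0

/-- points of `D i` are density points of the colour `i` -/
theorem isDens_of_mem {k : ℕ} {D : Fin k → Set ℂ} (hD : ∀ i, IsOpen (D i)) {c : ℂ → Fin k}
    (hE : Ext D c) {i : Fin k} {x : ℂ} (hx : x ∈ D i) : IsDens (c ⁻¹' {i}) x := by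
  obtain ⟨ρ, hρ, hball⟩ := Metric.isOpen_iff.1 (hD i) x hx
  unfold IsDens
  refine tendsto_const_nhds.congr' ?_
  filter_upwards [Ioo_mem_nhdsGT hρ] with r hr
  have h1 : Metric.closedBall x r ⊆ D i := (Metric.closedBall_subset_ball hr.2).trans hball
  have h2 : volume (c ⁻¹' {i} ∩ Metric.closedBall x r) = volume (Metric.closedBall x r) := by
    refine measure_congr ?_
    filter_upwards [hE i] with y hy
    refine propext ⟨fun h => h.2, fun h => ⟨hy (h1 h), h⟩⟩
  rw [h2, ENNReal.div_self (Metric.measure_closedBall_pos volume x hr.1).ne'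
    (isCompact_closedBall x r).measure_lt_top.ne]

/-- nearly every point is a density point of its class -/
theorem ae_isDens {k : ℕ} {c : ℂ → Fin k} (hc : Measurable c) :
    ∀ᵐ x : ℂ, IsDens (c ⁻¹' {c x}) x := by
  have h1 : ∀ᵐ x : ℂ, ∀ j : Fin k, x ∈ c ⁻¹' {j} → IsDens (c ⁻¹' {j}) x := by
    rw [ae_all_iff]
    intro j
    have := Besicovitch.ae_tendsto_measure_inter_div (volume : Measure ℂ) (c ⁻¹' {j})
    rw [ae_restrict_iff' (hc (measurableSet_singleton j))] at this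
    exact this
  filter_upwards [h1] with x hx
  exact hx (c x) rfl

/-- classes containing open sets with dense union -/
theorem nowhereDense {X : Type*} [TopologicalSpace X] {k : ℕ} {D : Fin k → Set X}
    {c : X → Fin k} (hD : ∀ i, IsOpen (D i)) (hd : Dense (⋃ i, D i))
    (hs : ∀ i, D i ⊆ c ⁻¹' {i}) (i : Fin k) :
    IsNowhereDense (c ⁻¹' {i} \ interior (c ⁻¹' {i})) := by
  have h1 : c ⁻¹' {i} \ interior (c ⁻¹' {i}) ⊆ (⋃ i, D i)ᶜ := by
    rintro x ⟨h2, h3⟩ h4
    obtain ⟨j, hj⟩ := mem_iUnion.1 h4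
    have h5 : j = i := (hs j hj).symm.trans h2
    subst h5
    exact h3 (interior_maximal (hs j) (hD j) hj)
  have h2 : closure (c ⁻¹' {i} \ interior (c ⁻¹' {i})) ⊆ (⋃ i, D i)ᶜ :=
    closure_minimal h1 (isOpen_iUnion hD).isClosed_compl
  have h3 : interior ((⋃ i, D i)ᶜ) = ∅ := hd.interior_compl
  exact subset_eq_empty (interior_mono h2) h3

end Vale.Agent.P032.R2.H125
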